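import Vale.Agent.P207.N4.Dim
import Vale.Agent.P207.N5.H515.NaCoc
import Vale.Agent.P207.N5.H478.HolInf

/-!
# P207, line N5, all dimensions: the S-bundle and the stable holonomy, from a dense set of end points

`SInv0 P x ξ`: the derivative at the centre of the stable holonomy from the leaf of `x` to the leaf
`ξ` maps the S-space of `x` onto the one of `hol ξ x`. `sinv_of_dense`: if this holds for all frames
whose end point is in a dense set `Z`, then `P.SInv`. No rate is used: the S-space is constant along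
the leaf, and the holonomy is of class `C¹`.
-/

open Set Filter Topology Metric MeasureTheory
open scoped ContDiff

noncomputable section

namespace Vale.Agent.P207.N4.V.H732

open Vale.Agent.P207.N4.H732

open Vale.Agent.P207.N3

variable [Dim]

/-! ### the push forward of forms -/

/-- pull back of a form -/
def pb (T s : E2 →L[ℝ] E2) : E2 →L[ℝ] E2 := ContinuousLinearMap.adjoint T ∘L s ∘L T

theorem push_eq (A : E2 ≃L[ℝ] E2) (s : E2 →L[ℝ] E2) :
    Pic.push A s = pb (A.symm : E2 →L[ℝ] E2) s := rfl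

theorem pb_comp (T R s : E2 →L[ℝ] E2) : pb (T ∘L R) s = pb R (pb T s) := by
  unfold pb
  rw [ContinuousLinearMap.adjoint_comp]
  rfl

theorem pb_id (s : E2 →L[ℝ] E2) : pb (ContinuousLinearMap.id ℝ E2) s = s := by
  unfold pb
  rw [ContinuousLinearMap.adjoint_id]
  rfl

theorem push_trans (A A' : E2 ≃L[ℝ] E2) (s : E2 →L[ℝ] E2) :
    Pic.push (A.trans A') s = Pic.push A' (Pic.push A s) := by
  rw [push_eq, push_eq, push_eq, ← pb_comp]
  rfl

theorem pb_push (A : E2 ≃L[ℝ] E2) (s : E2 →L[ℝ] E2) :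
    pb (A : E2 →L[ℝ] E2) (Pic.push A s) = s := by
  rw [push_eq, ← pb_comp]
  have h : (A.symm : E2 →L[ℝ] E2) ∘L (A : E2 →L[ℝ] E2) = ContinuousLinearMap.id ℝ E2 := by
    ext1 v
    exact A.symm_apply_apply v
  rw [h, pb_id]

theorem continuous_pb (s : E2 →L[ℝ] E2) : Continuous fun T : E2 →L[ℝ] E2 => pb T s := by
  have h1 : Continuous fun T : E2 →L[ℝ] E2 => ContinuousLinearMap.adjoint T :=
    (ContinuousLinearMap.adjoint (𝕜 := ℝ) (E := E2) (F := E2)).continuous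
  exact h1.clm_comp (continuous_const.clm_comp continuous_id)

variable {Γ X B : Type} [Group Γ] [MetricSpace X] [ProperSpace X] [MulAction Γ X]
  [IsIsometricSMul Γ X] [TopologicalSpace B] [CompactSpace B] [T2Space B] [MulAction Γ B]
  [ContinuousConstSMul Γ B] {L : Leaf Γ X B} [MeasurableSpace B] [BorelSpace B] {V : Type}
  [NormedAddCommGroup V] [NormedSpace ℝ V] [FiniteDimensional ℝ V] (P : Pic L V)

/-! ### the S-space is a subspace -/

theorem pr_add (N s s' : E2 →L[ℝ] E2) : Pic.pr N (s + s') = Pic.pr N s + Pic.pr N s' := by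
  unfold Pic.pr
  rw [ContinuousLinearMap.comp_add, ContinuousLinearMap.toLinearMap_add, map_add]

theorem pr_smul (c : ℝ) (N s : E2 →L[ℝ] E2) : Pic.pr N (c • s) = c * Pic.pr N s := by
  unfold Pic.pr
  rw [ContinuousLinearMap.comp_smul, ContinuousLinearMap.toLinearMap_smul, map_smul, smul_eq_mul]

theorem pr_zero (N : E2 →L[ℝ] E2) : Pic.pr N 0 = 0 := by
  unfold Pic.pr
  rw [ContinuousLinearMap.comp_zero, ContinuousLinearMap.toLinearMap_zero, map_zero]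

/-- the S-space as a subspace -/
def SmS (x : X) : Submodule ℝ (E2 →L[ℝ] E2) where
  carrier := P.Sm x
  add_mem' := by
    intro s s' hs hs'
    have h : ContDiffOn ℝ ∞ (fun q => Pic.pr (P.Na x q) s + Pic.pr (P.Na x q) s')
        (ball (0 : E2) 1) := ContDiffOn.add hs hs'
    exact h.congr fun q _ => pr_add _ _ _
  zero_mem' := by
    have h : ContDiffOn ℝ ∞ (fun _ : E2 => (0 : ℝ)) (ball (0 : E2) 1) := contDiffOn_const
    exact h.congr fun q _ => pr_zero _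
  smul_mem' := by
    intro c s hs
    have h : ContDiffOn ℝ ∞ (fun q => c * Pic.pr (P.Na x q) s) (ball (0 : E2) 1) :=
      ContDiffOn.mul contDiffOn_const hs
    exact h.congr fun q _ => pr_smul _ _ _

theorem isClosed_Sm (x : X) : IsClosed (P.Sm x) :=
  (SmS P x).closed_of_finiteDimensional

/-! ### the centre -/

/-- the S-spaces correspond under the derivative of the stable holonomy at the centre -/
def SInv0 (x : X) (ξ : B) : Prop := ∀ A : E2 ≃L[ℝ] E2,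
  (A : E2 →L[ℝ] E2) = fderiv ℝ (P.hh x ξ) 0 → ∀ s, s ∈ P.Sm x ↔ Pic.push A s ∈ P.Sm (L.hol ξ x)

theorem isOpenMap_pt (x : X) : IsOpenMap (P.Af.pt x) := by
  intro U hU
  have h1 : P.Af.pt x '' U = {η | η ≠ L.em x} ∩ P.Af.ch x ⁻¹' U := by
    ext η
    constructor
    · rintro ⟨q, hq, rfl⟩
      refine ⟨P.Af.pt_ne x q, ?_⟩
      rw [mem_preimage, P.Af.ch_pt]
      exact hq
    · rintro ⟨h, h'⟩
      exact ⟨P.Af.ch x η, h', P.Af.pt_ch x η h⟩
  rw [h1]
  exact (P.Af.chx_cont x).isOpen_inter_preimage (isOpen_compl_singleton) hU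

theorem dense_pt {Z : Set B} (hZ : Dense Z) (x : X) : Dense (P.Af.pt x ⁻¹' Z) :=
  hZ.preimage (isOpenMap_pt P x)

/-- the holonomy of another frame of the leaf, in the coordinates -/
theorem hh_lp {x z : X} {ξ : B} (hxz : L.em x = L.em z) (hx : ξ ≠ L.ep x)
    {q : E2} (hq : P.Af.pt x q ≠ ξ) :
    P.hh z ξ (P.Af.lp x z q) = P.Af.lp (L.hol ξ x) (L.hol ξ z) (P.hh x ξ q) := by
  have h1 : P.Af.pt z (P.Af.lp x z q) = P.Af.pt x q := P.Af.pt_lp hxz q
  have h2 : P.Af.pt (L.hol ξ x) (P.hh x ξ q) = P.Af.pt x q :=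
    P.Af.pt_ch _ _ (by rw [L.hol_em ξ x hx]; exact hq)
  show P.Af.ch (L.hol ξ z) (P.Af.pt z (P.Af.lp x z q)) =
    P.Af.ch (L.hol ξ z) (P.Af.pt (L.hol ξ x) (P.hh x ξ q))
  rw [h1, h2]

/-- `SInv` at the points of a leaf whose end point is in `Z` -/
theorem sinv_at (hC : ∀ x ξ, ξ ≠ L.ep x → ContDiffOn ℝ 1 (P.hh x ξ) {q | P.Af.pt x q ≠ ξ} ∧
      ∀ q, P.Af.pt x q ≠ ξ → (fderiv ℝ (P.hh x ξ) q).IsInvertible)
    (hSB : ∀ x y, L.em x = L.em y → ∀ s, s ∈ P.Sm x ↔ Pic.push (P.Af.lin x y) s ∈ P.Sm y)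
    {x : X} {ξ : B} (hx : ξ ≠ L.ep x) {q : E2} (hq : P.Af.pt x q ≠ ξ)
    (h : ∀ z, L.ep z = P.Af.pt x q → SInv0 P z ξ) (A : E2 ≃L[ℝ] E2)
    (hA : (A : E2 →L[ℝ] E2) = fderiv ℝ (P.hh x ξ) q) (s : E2 →L[ℝ] E2) :
    s ∈ P.Sm x ↔ Pic.push A s ∈ P.Sm (L.hol ξ x) := by
  obtain ⟨z, hz1, hz2, -⟩ := L.exists_frame (L.em x) (P.Af.pt x q) (P.Af.pt_ne x q).symm 0
  have hxz : L.em x = L.em z := hz1.symm
  have hz : ξ ≠ L.ep z := by rw [hz2]; exact hq.symm
  have hem : L.em (L.hol ξ x) = L.em (L.hol ξ z) := by rw [L.hol_em ξ x hx, L.hol_em ξ z hz]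
  -- the centre
  have h0 : P.Af.lp x z q = 0 := by
    show P.Af.ch z (P.Af.pt x q) = 0
    rw [← hz2, ← P.Af.pt_zero z, P.Af.ch_pt]
  -- the open set
  have hU : IsOpen {w | P.Af.pt x w ≠ ξ} :=
    isOpen_compl_singleton.preimage (P.Af.ptx_cont x)
  have hUz : IsOpen {w | P.Af.pt z w ≠ ξ} :=
    isOpen_compl_singleton.preimage (P.Af.ptx_cont z)
  have h0z : (0 : E2) ∈ {w | P.Af.pt z w ≠ ξ} := by
    show P.Af.pt z 0 ≠ ξ
    rw [P.Af.pt_zero]
    exact hz.symm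
  obtain ⟨C1, C2⟩ := hC z ξ hz
  obtain ⟨D1, -⟩ := hC x ξ hx
  have hdz : HasFDerivAt (P.hh z ξ) (fderiv ℝ (P.hh z ξ) 0) (P.Af.lp x z q) := by
    rw [h0]
    exact ((C1.contDiffAt (hUz.mem_nhds h0z)).differentiableAt one_ne_zero).hasFDerivAt
  have hdx : HasFDerivAt (P.hh x ξ) (fderiv ℝ (P.hh x ξ) q) q :=
    ((D1.contDiffAt (hU.mem_nhds hq)).differentiableAt one_ne_zero).hasFDerivAt
  obtain ⟨A0, hA0⟩ := C2 0 h0z
  -- the two derivatives
  have e1 : HasFDerivAt (fun w => P.hh z ξ (P.Af.lp x z w))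
      (fderiv ℝ (P.hh z ξ) 0 ∘L (P.Af.lin x z : E2 →L[ℝ] E2)) q :=
    hdz.comp q (P.Af.hasFDerivAt_lp hxz q)
  have e2 : HasFDerivAt (fun w => P.Af.lp (L.hol ξ x) (L.hol ξ z) (P.hh x ξ w))
      ((P.Af.lin (L.hol ξ x) (L.hol ξ z) : E2 →L[ℝ] E2) ∘L fderiv ℝ (P.hh x ξ) q) q :=
    (P.Af.hasFDerivAt_lp hem _).comp q hdx
  have e3 : (fun w => P.hh z ξ (P.Af.lp x z w)) =ᶠ[𝓝 q]
      fun w => P.Af.lp (L.hol ξ x) (L.hol ξ z) (P.hh x ξ w) := by
    filter_upwards [hU.mem_nhds hq] with w hw using hh_lp P hxz hx hw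
  have e4 := (e1.congr_of_eventuallyEq e3.symm).unique e2
  have e5 : (P.Af.lin x z).trans A0 = A.trans (P.Af.lin (L.hol ξ x) (L.hol ξ z)) := by
    refine ContinuousLinearEquiv.ext (funext fun v => ?_)
    have e6 := DFunLike.congr_fun e4 v
    rw [← hA0, ← hA] at e6
    exact e6
  rw [hSB x z hxz s, h z hz2 A0 hA0 _, ← push_trans, e5, push_trans]
  exact (hSB _ _ hem _).symm

/-- **the invariance of the S-bundle, from a dense set of end points** -/
theorem sinv_of_dense (hC : ∀ x ξ, ξ ≠ L.ep x → ContDiffOn ℝ 1 (P.hh x ξ) {q | P.Af.pt x q ≠ ξ} ∧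
      ∀ q, P.Af.pt x q ≠ ξ → (fderiv ℝ (P.hh x ξ) q).IsInvertible)
    (hSB : ∀ x y, L.em x = L.em y → ∀ s, s ∈ P.Sm x ↔ Pic.push (P.Af.lin x y) s ∈ P.Sm y)
    {Z : Set B} (hZ : Dense Z) (h : ∀ x ξ, ξ ≠ L.ep x → L.ep x ∈ Z → SInv0 P x ξ) : P.SInv := by
  intro x ξ hx q hq A hA s
  have hU : IsOpen {w | P.Af.pt x w ≠ ξ} :=
    isOpen_compl_singleton.preimage (P.Af.ptx_cont x)
  obtain ⟨D1, D2⟩ := hC x ξ hx
  have hcont : ContinuousAt (fderiv ℝ (P.hh x ξ)) q :=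
    (D1.contDiffAt (hU.mem_nhds hq)).continuousAt_fderiv one_ne_zero
  have hfr : ∃ᶠ w in 𝓝 q, w ∈ P.Af.pt x ⁻¹' Z :=
    mem_closure_iff_frequently.1 (dense_pt P hZ x q)
  have hfr' : ∃ᶠ w in 𝓝 q, w ∈ P.Af.pt x ⁻¹' Z ∧ P.Af.pt x w ≠ ξ :=
    hfr.and_eventually (hU.mem_nhds hq)
  have key : ∀ w, w ∈ P.Af.pt x ⁻¹' Z ∧ P.Af.pt x w ≠ ξ → ∀ A' : E2 ≃L[ℝ] E2,
      (A' : E2 →L[ℝ] E2) = fderiv ℝ (P.hh x ξ) w → ∀ s', s' ∈ P.Sm x ↔
        Pic.push A' s' ∈ P.Sm (L.hol ξ x) := by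
    intro w hw A' hA' s'
    refine sinv_at P hC hSB hx hw.2 (fun z hz => h z ξ ?_ ?_) A' hA' s'
    · rw [hz]
      exact hw.2.symm
    · rw [hz]
      exact hw.1
  constructor
  · intro hs
    have hinv : ContinuousAt (fun w => (fderiv ℝ (P.hh x ξ) w).inverse) q := by
      have h1 : ContinuousAt (ContinuousLinearMap.inverse : (E2 →L[ℝ] E2) → (E2 →L[ℝ] E2))
          (fderiv ℝ (P.hh x ξ) q) := by
        rw [← hA]
        exact (contDiffAt_map_inverse (n := 0) A).continuousAt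
      exact ContinuousAt.comp (f := fderiv ℝ (P.hh x ξ)) h1 hcont
    have h2 : Tendsto (fun w => pb (fderiv ℝ (P.hh x ξ) w).inverse s) (𝓝 q)
        (𝓝 (pb (fderiv ℝ (P.hh x ξ) q).inverse s)) :=
      ((continuous_pb s).continuousAt.comp hinv)
    have h3 : pb (fderiv ℝ (P.hh x ξ) q).inverse s = Pic.push A s := by
      rw [← hA, ContinuousLinearMap.inverse_equiv]
      rfl
    rw [← h3]
    refine (isClosed_Sm P (L.hol ξ x)).mem_of_frequently_of_tendsto ?_ h2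
    refine hfr'.mono fun w hw => ?_
    obtain ⟨A', hA'⟩ := D2 w hw.2
    rw [← hA', ContinuousLinearMap.inverse_equiv]
    exact (key w hw A' hA' s).1 hs
  · intro hs
    have h2 : Tendsto (fun w => pb (fderiv ℝ (P.hh x ξ) w) (Pic.push A s)) (𝓝 q)
        (𝓝 (pb (fderiv ℝ (P.hh x ξ) q) (Pic.push A s))) :=
      (continuous_pb _).continuousAt.comp hcont
    have h3 : pb (fderiv ℝ (P.hh x ξ) q) (Pic.push A s) = s := by
      rw [← hA, pb_push]
    rw [← h3]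
    refine (isClosed_Sm P x).mem_of_frequently_of_tendsto ?_ h2
    refine hfr'.mono fun w hw => ?_
    obtain ⟨A', hA'⟩ := D2 w hw.2
    rw [key w hw A' hA', ← hA']
    have h4 : Pic.push A' (pb (A' : E2 →L[ℝ] E2) (Pic.push A s)) = Pic.push A s := by
      rw [push_eq, ← pb_comp]
      have h5 : (A' : E2 →L[ℝ] E2) ∘L (A'.symm : E2 →L[ℝ] E2) = ContinuousLinearMap.id ℝ E2 := by
        ext1 v
        exact A'.apply_symm_apply v
      rw [h5, pb_id]
    rw [h4]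
    exact hs

end Vale.Agent.P207.N4.V.H732
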